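import Vale.Agent.P223.X.SpecU
import Vale.Agent.P223.K

/-! P223, modifications of minimal Kaehler manifolds: blocks (helper84). -/

namespace Vale.Agent.P223.R2.H84

open scoped ContDiff Topology ENNReal
open MeasureTheory Vale.Agent.P223.H Vale.Agent.P223.X

/-- `f` is bijective on fundamental groups, at every base point: a loop of `Y` whose image is
contractible is contractible, and every loop at `f y` is homotopic to the image of a loop at `y`. -/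
def PiIso {Y X : Type} [TopologicalSpace Y] [TopologicalSpace X] (f : C(Y, X)) : Prop :=
  ∀ y : Y, (∀ p : Path y y, (p.map f.continuous).Homotopic (Path.refl (f y)) →
      p.Homotopic (Path.refl y)) ∧
    ∀ q : Path (f y) (f y), ∃ p : Path y y, (p.map f.continuous).Homotopic q

/-- BLOCK B3 (topology) : the fibre product `W = {(y, z) | f y = π z}` of `f` with the universal
covering `π` is simply connected (so it is the universal covering of `Y`, with the same group). -/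
def SpecFP : Prop := ∀ (Y X Z Γ : Type) [TopologicalSpace Y] [TopologicalSpace X]
  [TopologicalSpace Z] [Group Γ] [MulAction Γ Z] [T2Space Y] [T2Space X] [T2Space Z]
  [PathConnectedSpace Y] [CompactSpace Y] [SimplyConnectedSpace Z] (f : C(Y, X)) (π : C(Z, X)),
  (∀ γ : Γ, Continuous fun z : Z => γ • z) → (∀ (γ : Γ) (z : Z), γ • z = z → γ = 1) →
  IsCoveringMap π → Function.Surjective π → (∀ x y : Z, π x = π y ↔ ∃ γ : Γ, γ • x = y) →
  PiIso f → ∃ (W : Type) (_ : TopologicalSpace W) (_ : MulAction Γ W) (π' : C(W, Y))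
    (F : C(W, Z)), SimplyConnectedSpace W ∧ T2Space W ∧
    (∀ γ : Γ, Continuous fun w : W => γ • w) ∧ (∀ (γ : Γ) (w : W), γ • w = w → γ = 1) ∧
    IsCoveringMap π' ∧ Function.Surjective π' ∧ (∀ x y : W, π' x = π' y ↔ ∃ γ : Γ, γ • x = y) ∧
    (∀ (γ : Γ) (w : W), F (γ • w) = γ • F w) ∧ (∀ w, π (F w) = f (π' w)) ∧
    ∀ K : Set Z, IsCompact K → IsCompact (F ⁻¹' K)

section
variable {n : ℕ} {M N X W Γ I I' : Type} [TopologicalSpace M] [TopologicalSpace N]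
  [TopologicalSpace X] [TopologicalSpace W] [Group Γ] [MulAction Γ X] [MulAction Γ W]

/-- `F : W → X` is an equivariant proper map, smooth in charts (`W → N` and `X → M` are coverings
with the same group). -/
structure Over (C : Cov n M X Γ I) (C' : Cov n N W Γ I') (F : C(W, X)) : Prop where
  equiv : ∀ (γ : Γ) (w : W), F (γ • w) = γ • F w
  prop : ∀ K : Set X, IsCompact K → IsCompact (F ⁻¹' K)
  loc : ∀ (i : I') (y : E n), ∃ (j : I) (γ₀ : Γ) (Φ : E n → E n), ContDiffAt ℝ ∞ Φ y ∧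
    ∀ᶠ y' in 𝓝 y, F (C'.ψ i y') = γ₀ • C.ψ j (Φ y')

end

/-- BLOCK B4a : the pulled back partition of unity -/
def SpecPull : Prop := ∀ (n : ℕ) (M N X W Γ I I' : Type) [TopologicalSpace M] [TopologicalSpace N]
  [TopologicalSpace X] [TopologicalSpace W] [Group Γ] [MulAction Γ X] [MulAction Γ W] [Fintype I]
  [Fintype I'] [T2Space X] [T2Space W] (C : Cov n M X Γ I) (C' : Cov n N W Γ I') (F : C(W, X)),
  Over C C' F → ∀ P : PUX C Unit, ∃ P' : PUX C' Unit, ∀ w, P'.φ () w = P.φ () (F w)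

/-- BLOCK B4b : the pointwise estimate (cf. `X.NormX.wt_le`, `H.Norm.jdet_le`) -/
def SpecPt : Prop := ∀ (n : ℕ) (M N X W Γ I I' : Type) [TopologicalSpace M] [TopologicalSpace N]
  [TopologicalSpace X] [TopologicalSpace W] [Group Γ] [MulAction Γ X] [MulAction Γ W] [Fintype I]
  [Fintype I'] [T2Space X] [T2Space W] (C : Cov n M X Γ I) (C' : Cov n N W Γ I') (F : C(W, X)),
  Over C C' F → ∀ (G : I → E n → Matrix (Fin n) (Fin n) ℝ), MetX C G → ∀ (P : PUX C Unit)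
  (P' : PUX C' Unit), (∀ x, 0 ≤ P.φ () x) → (∀ w, P'.φ () w = P.φ () (F w)) →
  ∀ (l : Fin (n + 1) → Γ × Unit), (l 0).1 = 1 → ∀ (i : I') (γ : Γ) (y : E n) (j : I) (γ₀ : Γ)
  (Φ : E n → E n), DifferentiableAt ℝ Φ y → (∀ᶠ y' in 𝓝 y, F (C'.ψ i y') = γ₀ • C.ψ j (Φ y')) →
  ENNReal.ofReal |C'.rep (P'.fn (l 0)) γ i y *
      jdet (fun k : Fin n => C'.rep (P'.fn (l k.succ)) γ i) y| ≤
    ENNReal.ofReal (P'.φ () (γ • C'.ψ i y)) *
      (∏ k : Fin n, ENNReal.ofReal √(gsX C G (P.φ ()) (F ((l k.succ).1⁻¹ • γ • C'.ψ i y)))) *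
      ENNReal.ofReal (dens (G j) (Φ y) * |(fderiv ℝ Φ y).det|)

/-- BLOCK B2 : general form of the norm estimate (the proof of `X.NormX.main`, with `sg`, `dens`
replaced by `s`, `D`). -/
def SpecNormG : Prop := ∀ (n : ℕ) (M X Γ I : Type) [TopologicalSpace M] [TopologicalSpace X]
  [Group Γ] [MulAction Γ X] [Fintype I] [T2Space X] [ConnectedSpace X] [T2Space M]
  [MeasurableSpace M] [BorelSpace M] (C : Cov n M X Γ I) (χ : I → E n → ℝ) (ν : Measure M)
  (D : I → E n → ℝ≥0∞), 1 ≤ n → Part C χ →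
  (∀ i (f : M → ℝ≥0∞), ∫⁻ y, f (C.π (C.ψ i y)) * D i y =
    ∫⁻ m in Set.range fun y => C.π (C.ψ i y), f m ∂ν) →
  ∀ P : PUX C Unit, (∀ x, 0 ≤ P.φ () x) → ∀ s : X → ℝ≥0∞,
  (∀ (l : Fin (n + 1) → Γ × Unit), (l 0).1 = 1 → ∀ i (γ : Γ) y,
    ENNReal.ofReal |C.rep (P.fn (l 0)) γ i y *
      jdet (fun k : Fin n => C.rep (P.fn (l k.succ)) γ i) y| ≤
    ENNReal.ofReal (P.φ () (γ • C.ψ i y)) *
      (∏ k : Fin n, s ((l k.succ).1⁻¹ • γ • C.ψ i y)) * D i y) →
  ∀ h : M → ℝ≥0∞, (∀ x, h (C.π x) = (∑' γ : Γ, s (γ • x)) ^ n) →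
  ENNReal.ofReal (∑ᶠ l ∈ {l : Fin (n + 1) → Γ × Unit | (l 0).1 = 1}, |P.wt χ l|) ≤
    ∫⁻ m, h m ∂ν

/-- BLOCK B5 : the core of `X.Main.svX_le` (mapping theorem and duality) -/
def SpecSvWt : Prop := ∀ (n : ℕ) (M X Γ I : Type) [TopologicalSpace M] [TopologicalSpace X]
  [Group Γ] [MulAction Γ X] [Fintype I] [T2Space X] [SimplyConnectedSpace X] [T2Space M]
  (C : Cov n M X Γ I) (χ : I → E n → ℝ), 1 ≤ n → Part C χ → (∃ s : ℕ → X, MT.Dist Γ s) →
  ∀ P : PUX C Unit,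
  svX C ≤ ENNReal.ofReal (∑ᶠ l ∈ {l : Fin (n + 1) → Γ × Unit | (l 0).1 = 1}, |P.wt χ l|)

/-- BLOCK B6 : a good partition of unity on the universal covering of a closed manifold with
`Ric ≥ -g` (the proof of `X.FinalM.ricci`, constant family, stopped before `svX_le`). -/
def SpecGood : Prop := ∀ (n : ℕ), 4 ≤ n → ∀ (M : Type) [TopologicalSpace M] [CompactSpace M]
  [T2Space M] [ConnectedSpace M] [MeasurableSpace M] [BorelSpace M] (c : M → J.Ch n M), J.Atl c →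
  ∀ (X Γ I : Type) [TopologicalSpace X] [Group Γ] [MulAction Γ X] [Fintype I] [T2Space X]
  [SimplyConnectedSpace X] [MeasurableSpace X] [BorelSpace X] (B : Box c I) (C : Cov n M X Γ I),
  (∀ i y, C.π (C.ψ i y) = B.β i y) →
  ∀ (g : M → J.Mtx n) (μ : Measure M), J.Met c g → J.Vol c g μ → J.RicGe c g (fun _ => 1) →
  ∀ δ : ℝ, 0 < δ → ∃ P : PUX C Unit, (∀ x, 0 ≤ P.φ () x) ∧
    ∫⁻ m, ENNReal.ofReal (C.dn (fun x => ∑ᶠ γ : Γ, √(gsX C (B.G g) (P.φ ()) (γ • x))) m ^ n) ∂μ ≤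
      ENNReal.ofReal (J.kap n ^ n) * μ Set.univ + ENNReal.ofReal δ

/-- `f` is smooth and holomorphic (as in the starting file `KahlerInequality`) -/
def Hol {n : ℕ} {X Y : Type} [TopologicalSpace X] [TopologicalSpace Y]
    (A : Matrix (Fin n) (Fin n) ℝ) (c' : Y → K.Ch n Y) (c : X → K.Ch n X) (f : Y → X) : Prop :=
  Continuous f ∧ ∀ a b p x y, K.At (c' a) p x → K.At (c b) (f p) y →
    (∀ i, K.Cinf (fun z => c b (f ((c' a).symm z)) i) x) ∧
    K.jac (fun z => c b (f ((c' a).symm z))) x * A = A * K.jac (fun z => c b (f ((c' a).symm z))) x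

/-- Every regular value `q` of `f` has exactly `d` preimages. -/
def DegEq {n : ℕ} {X Y : Type} [TopologicalSpace X] [TopologicalSpace Y]
    (c' : Y → K.Ch n Y) (c : X → K.Ch n X) (f : Y → X) (d : ℕ) : Prop :=
  ∀ q, (∀ a b p x y, f p = q → K.At (c' a) p x → K.At (c b) q y →
      (K.jac (fun z => c b (f ((c' a).symm z))) x).det ≠ 0) → (f ⁻¹' {q}).encard = d

/-- BLOCK B1 : the area formula (upper bound), `q` = the relative Jacobian determinant
(the proof of `H209.area`; cf. `H209.specKHol`, `relJac_eq`, `pden_eq`, `relJac_continuous`). -/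
def SpecAreaLe : Prop := ∀ (n : ℕ) (A : Matrix (Fin n) (Fin n) ℝ) (X Y : Type)
  [TopologicalSpace X] [T2Space X] [CompactSpace X] [MeasurableSpace X] [BorelSpace X]
  [TopologicalSpace Y] [T2Space Y] [CompactSpace Y] [MeasurableSpace Y] [BorelSpace Y]
  (c : X → K.Ch n X) (c' : Y → K.Ch n Y) (f : Y → X) (d : ℕ)
  (g : Y → (Fin n → ℝ) → Matrix (Fin n) (Fin n) ℝ) (g0 : X → (Fin n → ℝ) → Matrix (Fin n) (Fin n) ℝ)
  (μ : Measure Y) (μ0 : Measure X), A * A = -1 → K.Atl A c → K.Atl A c' → K.Herm A c' g →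
  K.Herm A c g0 → K.Vol c' g μ → K.Vol c g0 μ0 → Hol A c' c f → DegEq c' c f d →
  ∃ q : Y → ℝ, Continuous q ∧ (∀ p, 0 ≤ q p) ∧
    (∀ h : X → ℝ≥0∞, Measurable h → ∫⁻ p, h (f p) * ENNReal.ofReal (q p) ∂μ ≤
      d * ∫⁻ x, h x ∂μ0) ∧
    ∀ a b x, x ∈ (c' a).target → f ((c' a).symm x) ∈ (c b).source →
      q ((c' a).symm x) * √(g a x).det = √(g0 b (c b (f ((c' a).symm x)))).det *
        |(fderiv ℝ (fun z => c b (f ((c' a).symm z))) x).det|

/-- BLOCK B7 : local coordinates in boxes. -/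
def SpecBoxMap : Prop := ∀ (n : ℕ) (X Y Z W Γ I I' : Type) [TopologicalSpace X]
  [TopologicalSpace Y] [TopologicalSpace Z] [TopologicalSpace W] [Group Γ] [MulAction Γ Z]
  [MulAction Γ W] (c : X → J.Ch n X) (c' : Y → J.Ch n Y) (B : Box c I) (B' : Box c' I')
  (C : Cov n X Z Γ I) (C' : Cov n Y W Γ I') (f : C(Y, X)) (F : C(W, Z)), J.Atl c → J.Atl c' →
  (∀ i y, C.π (C.ψ i y) = B.β i y) → (∀ i y, C'.π (C'.ψ i y) = B'.β i y) →
  (∀ (γ : Γ) w, F (γ • w) = γ • F w) → (∀ w, C.π (F w) = f (C'.π w)) →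
  (∀ K : Set Z, IsCompact K → IsCompact (F ⁻¹' K)) →
  (∀ a b x, x ∈ (c' a).target → f ((c' a).symm x) ∈ (c b).source →
    ContDiffAt ℝ ∞ (fun z => c b (f ((c' a).symm z))) x) →
  Over C C' F ∧ ∀ (i : I') (y : E n), ∃ (j : I) (γ₀ : Γ) (Φ : E n → E n), ContDiffAt ℝ ∞ Φ y ∧
    (∀ᶠ y' in 𝓝 y, F (C'.ψ i y') = γ₀ • C.ψ j (Φ y')) ∧
    ∀ (g : Y → J.Mtx n) (g0 : X → J.Mtx n) (q : Y → ℝ), J.Met c' g → J.Met c g0 →
    (∀ a b x, x ∈ (c' a).target → f ((c' a).symm x) ∈ (c b).source →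
      q ((c' a).symm x) * √(g a x).det = √(g0 b (c b (f ((c' a).symm x)))).det *
        |(fderiv ℝ (fun z => c b (f ((c' a).symm z))) x).det|) →
    dens (B.G g0 j) (Φ y) * |(fderiv ℝ Φ y).det| = q (B'.β i y) * dens (B'.G g i) y

end Vale.Agent.P223.R2.H84
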