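import Vale.Agent.P223.R2.H84.Spec
import Vale.Agent.P223.H959.SpecH

/-! P223, modifications: blocks for holomorphic maps without assumption on the number of
preimages (the degree is constant) (helper84). -/

namespace Vale.Agent.P223.R2.H84

open scoped ContDiff Topology ENNReal
open MeasureTheory Vale.Agent.P223.H Vale.Agent.P223.X

/-- `q` is the relative Jacobian determinant of `f : (Y, g) → (X, g0)`. -/
def RelJ {n : ℕ} {X Y : Type} [TopologicalSpace X] [TopologicalSpace Y] (c : X → J.Ch n X)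
    (c' : Y → J.Ch n Y) (f : Y → X) (g : Y → J.Mtx n) (g0 : X → J.Mtx n) (q : Y → ℝ) : Prop :=
  Continuous q ∧ (∀ p, 0 ≤ q p) ∧
    ∀ a b x, x ∈ (c' a).target → f ((c' a).symm x) ∈ (c b).source →
      q ((c' a).symm x) * √(g a x).det = √(g0 b (c b (f ((c' a).symm x)))).det *
        |(fderiv ℝ (fun z => c b (f ((c' a).symm z))) x).det|

/-- ROW D1 : Stokes on a closed manifold, with a partition of unity in the boxes (`SpecCov` for the
trivial covering `Y → Y`, `SpecPart`, `X.StokesX.stokes`). -/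
def SpecStokesY : Prop := ∀ (n : ℕ) (Y I' : Type) [TopologicalSpace Y] [T2Space Y] [CompactSpace Y]
  [Fintype I'] (c' : Y → J.Ch n Y) (B' : Box c' I'), J.Atl c' → 1 ≤ n →
  ∃ χ : I' → E n → ℝ, (∀ i, ContDiff ℝ ∞ (χ i)) ∧ (∀ i y, 0 ≤ χ i y) ∧
    (∀ i, HasCompactSupport (χ i)) ∧ (∀ p : Y, ∑ i, Function.extend (B'.β i) (χ i) 0 p = 1) ∧
    ∀ u : Fin n → Y → ℝ, (∀ k i, ContDiff ℝ 1 fun y => u k (B'.β i y)) →
      ∑ i, ∫ y, χ i y * jdet (fun k y' => u k (B'.β i y')) y = 0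

/-- ROW D2 : a measure on `ℝ^n` which annihilates all partial derivatives of test functions is a
multiple of Lebesgue measure (translation invariance). -/
def SpecTr : Prop := ∀ (n : ℕ) (m : Measure (E n)), IsFiniteMeasureOnCompacts m →
  (∀ (k : Fin n) (η : E n → ℝ), ContDiff ℝ ∞ η → HasCompactSupport η →
    ∫ x, H.pd k η x ∂m = 0) → ∃ c : NNReal, m = c • (volume : Measure (E n))

/-- ROW D3 : the degree is constant in a box (from D1, D2 : for `h = ∂η/∂x_k`, with `Φ` the map in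
the boxes, `h (Φ) det DΦ = jdet (x_1 ∘ Φ, .., η ∘ Φ, .., x_n ∘ Φ)`, the coordinates being
multiplied by a cut off function which is `1` on the support of `η`). -/
def SpecLocDeg : Prop := ∀ (n : ℕ) (X Y I : Type) [TopologicalSpace X] [T2Space X]
  [CompactSpace X] [MeasurableSpace X] [BorelSpace X] [TopologicalSpace Y] [T2Space Y]
  [CompactSpace Y] [MeasurableSpace Y] [BorelSpace Y] (c : X → J.Ch n X) (c' : Y → J.Ch n Y)
  (B : Box c I) (f : C(Y, X)) (g : Y → J.Mtx n) (g0 : X → J.Mtx n) (μ : Measure Y)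
  (μ0 : Measure X) (q : Y → ℝ), 1 ≤ n → J.Atl c → J.Atl c' → J.Met c g0 → J.Met c' g →
  J.Vol c g0 μ0 → J.Vol c' g μ →
  (∀ a b x, x ∈ (c' a).target → f ((c' a).symm x) ∈ (c b).source →
    ContDiffAt ℝ ∞ (fun z => c b (f ((c' a).symm z))) x ∧
    0 ≤ (fderiv ℝ (fun z => c b (f ((c' a).symm z))) x).det) →
  RelJ c c' f g g0 q → ∀ j : I, ∃ cj : NNReal,
    (Measure.map f (μ.withDensity fun p => ENNReal.ofReal (q p))).comap (B.β j) =
      cj • μ0.comap (B.β j)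

/-- ROW D4 : from the boxes to `X` (connected). -/
def SpecGlobDeg : Prop := ∀ (n : ℕ) (X I : Type) [TopologicalSpace X] [T2Space X]
  [CompactSpace X] [ConnectedSpace X] [MeasurableSpace X] [BorelSpace X] [Fintype I]
  (c : X → J.Ch n X) (B : Box c I) (g0 : X → J.Mtx n) (μ0 ν : Measure X), J.Atl c →
  J.Met c g0 → J.Vol c g0 μ0 → (∀ j : I, ∃ cj : NNReal, ν.comap (B.β j) = cj • μ0.comap (B.β j)) →
  ∃ d : NNReal, ν = d • μ0

/-- ROW D5 : the curvature inequality without the number of preimages (the proof of `H959.Kholo`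
and `H959.holo_ineq`, stopped before the area inequality). -/
def SpecHoloFree : Prop := ∀ (n : ℕ), 3 ≤ n → ∀ (A : Matrix (Fin n) (Fin n) ℝ), A * A = -1 →
  ∀ (X Y : Type) [TopologicalSpace X] [T2Space X] [CompactSpace X] [MeasurableSpace X]
  [BorelSpace X] [TopologicalSpace Y] [T2Space Y] [CompactSpace Y] [MeasurableSpace Y]
  [BorelSpace Y] (c : X → K.Ch n X) (c' : Y → K.Ch n Y)
  (h : X → (Fin n → ℝ) → Matrix (Fin n) (Fin n) ℝ)
  (g : Y → (Fin n → ℝ) → Matrix (Fin n) (Fin n) ℝ) (μ : Measure Y) (f : Y → X) (V : ℝ≥0∞),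
  K.Atl A c → K.Atl A c' → K.Herm A c h → K.Herm A c' g → K.Vol c' g μ → Hol A c' c f →
  (∀ eta : ℝ, 0 < eta → ∃ (g0 : X → (Fin n → ℝ) → Matrix (Fin n) (Fin n) ℝ) (μ0 : Measure X),
    K.Herm A c g0 ∧ K.Kah A c g0 ∧ K.RicLe c g0 h eta ∧ K.Vol c g0 μ0 ∧
    ∀ q : Y → ℝ, RelJ c c' f g g0 q → V ≤ ∫⁻ p, ENNReal.ofReal (q p) ∂μ) →
  V ≤ K.I c' g μ

/-- ROW D5a : existence of `q` (see `R2/H187/AreaLe.lean`). -/
def SpecRelJ : Prop := ∀ (n : ℕ) (A : Matrix (Fin n) (Fin n) ℝ) (X Y : Type)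
  [TopologicalSpace X] [T2Space X] [CompactSpace X] [MeasurableSpace X] [BorelSpace X]
  [TopologicalSpace Y] [T2Space Y] [CompactSpace Y] [MeasurableSpace Y] [BorelSpace Y]
  (c : X → K.Ch n X) (c' : Y → K.Ch n Y) (f : Y → X)
  (g : Y → (Fin n → ℝ) → Matrix (Fin n) (Fin n) ℝ)
  (g0 : X → (Fin n → ℝ) → Matrix (Fin n) (Fin n) ℝ),
  A * A = -1 → K.Atl A c → K.Atl A c' → K.Herm A c' g →
  K.Herm A c g0 → Hol A c' c f → ∃ q : Y → ℝ, RelJ c c' f g g0 q

end Vale.Agent.P223.R2.H84
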