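import Vale.Agent.P223.R2.H84.Asm2
import Vale.Agent.P223.R2.H187.AreaLe
import Vale.Agent.P223.R2.H395.PullH
import Vale.Agent.P223.R2.H395.Push
import Vale.Agent.P223.R2.H627.Good
import Vale.Agent.P223.R2.H627.SvAm
import Vale.Agent.P223.R2.H887.SpecPt
import Vale.Agent.P223.R2.H887.PartC
import Vale.Agent.P223.R2.H968.BoxMap
import Vale.Agent.P223.R2.H968.FP2
import Vale.Agent.P223.R2.H968.Lift
import Vale.Agent.P223.R2.H968.Avg

/-! P223, modifications: all blocks (helper84). -/

namespace Vale.Agent.P223.R2.H84

theorem blk2 : Asm2.Blk2 where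
  lift := H968.Lift.main
  fp2 := H968.FP.main2
  sva := H627.SvAm.main H968.Avg.main H395.push H887.specPartC
  partc := H887.specPartC
  pull := H395.pull
  pt := H887.specPt
  good := H627.Good.main
  area := H187.main
  box := H968.main

end Vale.Agent.P223.R2.H84
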