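import Vale.Agent.P223.R2.H84.SpecSub
import Vale.Agent.P223.R2.H968.Lift

/-! P223, modifications: block E3 (the proof of helper968, without surjectivity). -/

namespace Vale.Agent.P223.R2.H84.Lift2

open Vale.Agent.P223.R2.H84 Vale.Agent.P223.X MulOpposite
open scoped Topology
open Vale.Agent.P223.R2.H968.Lift

theorem main : SpecLift2 := by
  intro Y X V Z G Γ _ _ _ _ _ _ _ _ _ _ _ _ _ f a π hGc hGf ha has hao hΓc hΓf hπ hπs hπo y0
    hmean
  obtain ⟨v0, hv0⟩ := has y0
  obtain ⟨z0, hz0⟩ := hπs (f y0)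
  have qa : IsQuotientCoveringMap a G := quot a hGc hGf ha has hao
  have qz : IsQuotientCoveringMap π Γ := quot π hΓc hΓf hπ hπs hπo
  -- the lift
  obtain ⟨b, ⟨hb0, hb⟩, -⟩ := hπ.existsUnique_continuousMap_lifts (f.comp a) v0 z0
    (by rw [hz0, ← hv0]; rfl)
  have hb' : ∀ v, π (b v) = f (a v) := fun v => congrFun hb v
  let ev : a ⁻¹' {y0} := ⟨v0, hv0⟩
  let ez : π ⁻¹' {f y0} := ⟨z0, hz0⟩
  let EA : FundamentalGroup Y y0 ≃* Gᵐᵒᵖ := qa.fundamentalGroupEquiv ev
  let EZ : FundamentalGroup X (f y0) ≃* Γᵐᵒᵖ := qz.fundamentalGroupEquiv ez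
  let F : Gᵐᵒᵖ →* Γᵐᵒᵖ :=
    EZ.toMonoidHom.comp ((FundamentalGroup.map f y0).comp EA.symm.toMonoidHom)
  let ρ : G →* Γ := MonoidHom.unop F
  have hρ : ∀ g : G, ρ g = (EZ (FundamentalGroup.map f y0 (EA.symm (op g)))).unop := fun g => rfl
  -- the value at the base point
  have hbase : ∀ g : G, b (g • v0) = ρ g • z0 := by
    intro g
    set c : FundamentalGroup Y y0 := EA.symm (op g) with hc
    have h1 : EA c = op g := EA.apply_symm_apply _
    have h2 : g • v0 = (ha.monodromy c ev : V) := by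
      have := (qa.fundamentalGroupToMulOpposite_apply_eq_Iff (e := ev) (γ := c) (g := op g)).1 h1
      exact this
    have h3 : (ρ g) • z0 = (hπ.monodromy (FundamentalGroup.map f y0 c) ez : Z) := by
      have := (qz.fundamentalGroupToMulOpposite_apply_eq_Iff (e := ez)
        (γ := FundamentalGroup.map f y0 c) (g := op (ρ g))).1 rfl
      exact this
    rw [h2, h3]
    exact mono ha hπ hb' hv0 hz0 hb0 c
  have heq : ∀ (g : G) v, b (g • v) = ρ g • b v := by
    intro g
    have h1 : (fun v => b (g • v)) = fun v => ρ g • b v := by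
      refine hπ.eq_of_comp_eq (b.continuous.comp (hGc g)) ((hΓc (ρ g)).comp b.continuous) ?_ v0 ?_
      · funext v
        show π (b (g • v)) = π (ρ g • b v)
        rw [hb', ← (hπo (b v) (ρ g • b v)).2 ⟨ρ g, rfl⟩, hb', (hao v (g • v)).2 ⟨g, rfl⟩]
      · show b (g • v0) = ρ g • b v0
        rw [hbase, hb0]
    exact fun v => congrFun h1 v
  refine ⟨b, ρ, hb', heq, ?_⟩
  · let e0 : G ≃* FundamentalGroup Y y0 := (MulEquiv.inv' G).trans EA.symm
    have hk : (FundamentalGroup.map f y0).ker = ρ.ker.map e0.toMonoidHom := by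
      ext c
      rw [Subgroup.mem_map_equiv, MonoidHom.mem_ker, MonoidHom.mem_ker]
      have h1 : e0.symm c = (EA c).unop⁻¹ := rfl
      rw [h1, map_inv, inv_eq_one, hρ, op_unop, EA.symm_apply_apply, unop_eq_one_iff,
        map_eq_one_iff EZ EZ.injective]
    exact gmean_equiv ((MulEquiv.subgroupCongr hk).trans (e0.subgroupMap ρ.ker).symm) hmean

end Vale.Agent.P223.R2.H84.Lift2
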