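import Vale.Agent.P223.R2.H84.SpecAm

/-! P223, modifications: blocks for maps which need not be surjective on fundamental groups
(helper84). -/

namespace Vale.Agent.P223.R2.H84

open scoped ContDiff Topology ENNReal
open MeasureTheory Vale.Agent.P223.H Vale.Agent.P223.X

/-- ROW E1 : the component `W0 = p (V)` of the covering `W → Y`, a covering of `Y` with group
`ρ (Δ)`. -/
def SpecComp : Prop := ∀ (Y V W Δ Γ : Type) [TopologicalSpace Y] [TopologicalSpace V]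
  [TopologicalSpace W] [Group Δ] [Group Γ] [MulAction Δ V] [MulAction Γ W] [T2Space Y] [T2Space V]
  [T2Space W] [ConnectedSpace V] [LocallyPathConnectedSpace Y] (a : C(V, Y)) (π' : C(W, Y))
  (ρ : Δ →* Γ) (p : C(V, W)),
  (∀ g : Δ, Continuous fun v : V => g • v) → (∀ (g : Δ) (v : V), g • v = v → g = 1) →
  IsCoveringMap a → Function.Surjective a → (∀ x y : V, a x = a y ↔ ∃ g : Δ, g • x = y) →
  (∀ γ : Γ, Continuous fun w : W => γ • w) → (∀ (γ : Γ) (w : W), γ • w = w → γ = 1) →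
  IsCoveringMap π' → Function.Surjective π' → (∀ x y : W, π' x = π' y ↔ ∃ γ : Γ, γ • x = y) →
  (∀ v, π' (p v) = a v) → (∀ (g : Δ) v, p (g • v) = ρ g • p v) →
  ∃ (W0 : Type) (_ : TopologicalSpace W0) (_ : MulAction ρ.range W0) (ι : C(W0, W))
    (p0 : C(V, W0)), T2Space W0 ∧ Topology.IsClosedEmbedding ι ∧
    (∀ (γ : ρ.range) w, ι (γ • w) = (γ : Γ) • ι w) ∧
    (∀ γ : ρ.range, Continuous fun w : W0 => γ • w) ∧
    (∀ (γ : ρ.range) (w : W0), γ • w = w → γ = 1) ∧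
    IsCoveringMap (π'.comp ι) ∧ Function.Surjective (π'.comp ι) ∧
    (∀ x y : W0, π'.comp ι x = π'.comp ι y ↔ ∃ γ : ρ.range, γ • x = y) ∧
    (∀ v, ι (p0 v) = p v) ∧ Function.Surjective p0

/-- ROW E2 : partitions of unity and the pointwise estimate, from `W` (group `Γ`) to `W0` (group
`Γ0`): `P0 w = ∑ c ∈ R, P (c⁻¹ • ι w)`, `s0 w = ∑ c ∈ R, s (c⁻¹ • ι w)`, `R` a finite set of
representatives of the cosets `Γ0 c` such that `P (c⁻¹ • ι w)` is not identically `0`. -/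
def SpecSubP : Prop := ∀ (n : ℕ) (M W W0 Γ I : Type) [TopologicalSpace M] [TopologicalSpace W]
  [TopologicalSpace W0] [Group Γ] (Γ0 : Subgroup Γ) [MulAction Γ W] [MulAction Γ0 W0] [Fintype I]
  [T2Space M] [T2Space W] [T2Space W0] [CompactSpace M] (C : Cov n M W Γ I)
  (C0 : Cov n M W0 Γ0 I) (ι : C(W0, W)), Topology.IsClosedEmbedding ι →
  (∀ (γ : Γ0) w, ι (γ • w) = (γ : Γ) • ι w) → (∀ w, C.π (ι w) = C0.π w) →
  (∀ i y, C0.π (C0.ψ i y) = C.π (C.ψ i y)) → 1 ≤ n → ∀ P : PUX C Unit, (∀ w, 0 ≤ P.φ () w) →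
  ∀ (s : W → ℝ≥0∞) (D : I → E n → ℝ≥0∞),
  (∀ (l : Fin (n + 1) → Γ × Unit), (l 0).1 = 1 → ∀ i (γ : Γ) y,
    ENNReal.ofReal |C.rep (P.fn (l 0)) γ i y *
      jdet (fun k : Fin n => C.rep (P.fn (l k.succ)) γ i) y| ≤
    ENNReal.ofReal (P.φ () (γ • C.ψ i y)) *
      (∏ k : Fin n, s ((l k.succ).1⁻¹ • γ • C.ψ i y)) * D i y) →
  ∃ (P0 : PUX C0 Unit) (s0 : W0 → ℝ≥0∞), (∀ w, 0 ≤ P0.φ () w) ∧
    (∀ (l : Fin (n + 1) → Γ0 × Unit), (l 0).1 = 1 → ∀ i (γ : Γ0) y,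
      ENNReal.ofReal |C0.rep (P0.fn (l 0)) γ i y *
        jdet (fun k : Fin n => C0.rep (P0.fn (l k.succ)) γ i) y| ≤
      ENNReal.ofReal (P0.φ () (γ • C0.ψ i y)) *
        (∏ k : Fin n, s0 ((l k.succ).1⁻¹ • γ • C0.ψ i y)) * D i y) ∧
    ∀ w : W0, ∑' γ : Γ0, s0 (γ • w) ≤ ∑' γ : Γ, s (γ • ι w)

/-- ROW E3 : `SpecLift` without surjectivity. -/
def SpecLift2 : Prop := ∀ (Y X V Z G Γ : Type) [TopologicalSpace Y] [TopologicalSpace X]
  [TopologicalSpace V] [TopologicalSpace Z] [Group G] [Group Γ] [MulAction G V] [MulAction Γ Z]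
  [T2Space V] [T2Space Z] [SimplyConnectedSpace V] [LocallyPathConnectedSpace V]
  [SimplyConnectedSpace Z] (f : C(Y, X)) (a : C(V, Y)) (π : C(Z, X)),
  (∀ g : G, Continuous fun v : V => g • v) → (∀ (g : G) (v : V), g • v = v → g = 1) →
  IsCoveringMap a → Function.Surjective a → (∀ x y : V, a x = a y ↔ ∃ g : G, g • x = y) →
  (∀ γ : Γ, Continuous fun z : Z => γ • z) → (∀ (γ : Γ) (z : Z), γ • z = z → γ = 1) →
  IsCoveringMap π → Function.Surjective π → (∀ x y : Z, π x = π y ↔ ∃ γ : Γ, γ • x = y) →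
  ∀ y0 : Y, Nonempty (GMean (FundamentalGroup.map f y0).ker) →
  ∃ (b : C(V, Z)) (ρ : G →* Γ), (∀ v, π (b v) = f (a v)) ∧ (∀ (g : G) v, b (g • v) = ρ g • b v) ∧
    Nonempty (GMean ρ.ker)

end Vale.Agent.P223.R2.H84
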