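import Vale.Agent.P223.R2.H84.Fin4
import Vale.Agent.P223.R2.H84.Lift2
import Vale.Agent.P223.R2.H187.HoloFree
import Vale.Agent.P223.R2.H290.Comp
import Vale.Agent.P223.R2.H395.LocDeg
import Vale.Agent.P223.R2.H395.PullH
import Vale.Agent.P223.R2.H395.Push
import Vale.Agent.P223.R2.H627.Good
import Vale.Agent.P223.R2.H627.SvAm
import Vale.Agent.P223.R2.H792.Tr
import Vale.Agent.P223.R2.H887.Glob
import Vale.Agent.P223.R2.H887.PartC
import Vale.Agent.P223.R2.H887.SpecPt
import Vale.Agent.P223.R2.H887.SubP
import Vale.Agent.P223.R2.H968.Avg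
import Vale.Agent.P223.R2.H968.BoxMap
import Vale.Agent.P223.R2.H968.FP2
import Vale.Agent.P223.R2.H968.StokesY

/-! P223, modifications: all blocks (helper84). -/

namespace Vale.Agent.P223.R2.H84

theorem blk4 : Fin4.Blk where
  c :=
    { lift := Lift2.main
      fp2 := H968.FP.main2
      comp := H290.rowE1
      subp := H887.SubP.specSubP
      sva := H627.SvAm.main H968.Avg.main H395.push H887.specPartC
      partc := H887.specPartC
      pull := H395.pull
      pt := H887.specPt
      good := H627.Good.main
      box := H968.main }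
  locd := H395.LD.locDeg H968.StokesY.main H792.Tr.specTr
  globd := H887.Glob.specGlobDeg
  holo := H187.specHoloFree

end Vale.Agent.P223.R2.H84
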