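import Vale.Agent.P223.R2.H84.Spec

/-! P223, modifications: blocks for maps with amenable kernel on fundamental groups (helper84). -/

namespace Vale.Agent.P223.R2.H84

open scoped ContDiff Topology ENNReal
open MeasureTheory Vale.Agent.P223.H Vale.Agent.P223.X

/-- Left invariant means on a group (`A` is amenable if it has one). -/
structure GMean (A : Type) [Group A] where
  μ : (A → ℝ) → ℝ
  add : ∀ f g, MT.Bdd f → MT.Bdd g → μ (fun a => f a + g a) = μ f + μ g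
  smul : ∀ (r : ℝ) f, MT.Bdd f → μ (fun a => r * f a) = r * μ f
  const : ∀ r : ℝ, μ (fun _ => r) = r
  bound : ∀ (f : A → ℝ) (C : ℝ), (∀ a, |f a| ≤ C) → |μ f| ≤ C
  inv : ∀ (f : A → ℝ) (b : A), MT.Bdd f → μ (fun a => f (b * a)) = μ f

/-- ROW R1 : averaging a bounded cocycle over an amenable kernel
(`F' (ρ g₀, .., ρ gₙ) = m (k₀ ↦ m (k₁ ↦ .. F (g₀ k₀, g₁ k₁, ..)))`). -/
def SpecAvg : Prop := ∀ (G Γ : Type) [Group G] [Group Γ] (ρ : G →* Γ) (n : ℕ)
  (F : (Fin (n + 1) → G) → ℝ), Function.Surjective ρ → Nonempty (GMean ρ.ker) →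
  (∀ g, |F g| ≤ 1) → (∀ (γ : G) g, F (fun i => γ * g i) = F g) →
  (∀ g : Fin (n + 2) → G, ∑ i : Fin (n + 2), (-1 : ℝ) ^ (i : ℕ) * F (g ∘ i.succAbove) = 0) →
  ∃ F' : (Fin (n + 1) → Γ) → ℝ, (∀ g, |F' g| ≤ 1) ∧ (∀ (γ : Γ) g, F' (fun i => γ * g i) = F' g) ∧
    (∀ g : Fin (n + 2) → Γ, ∑ i : Fin (n + 2), (-1 : ℝ) ^ (i : ℕ) * F' (g ∘ i.succAbove) = 0) ∧
    ∃ β : (Fin n → G) → ℝ, (∀ (γ : G) g, β (fun i => γ * g i) = β g) ∧
      ∀ g : Fin (n + 1) → G, F g - F' (fun i => ρ (g i)) =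
        ∑ i : Fin (n + 1), (-1 : ℝ) ^ (i : ℕ) * β (g ∘ i.succAbove)

/-- ROW R2 : push forward of partitions of unity along `p : X → W` (coverings of `M` with groups
`G → Γ`, in the same charts); for instance `P i = C.ex i (χ i)`, `P' i = C'.ex i (χ i)`. -/
def SpecPush : Prop := ∀ (n : ℕ) (M X W G Γ I : Type) [TopologicalSpace M] [TopologicalSpace X]
  [TopologicalSpace W] [Group G] [Group Γ] [MulAction G X] [MulAction Γ W] [Fintype I] [T2Space X]
  [T2Space W] (C : Cov n M X G I) (C' : Cov n M W Γ I) (ρ : G →* Γ) (p : C(X, W)),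
  Function.Surjective ρ → (∀ (g : G) x, p (g • x) = ρ g • p x) → (∀ x, C'.π (p x) = C.π x) →
  (∀ i y, C'.π (C'.ψ i y) = C.π (C.ψ i y)) → 1 ≤ n → ∀ χ : I → E n → ℝ, Part C χ → Part C' χ →
  ∃ (ι : Type) (_ : Fintype ι) (P : PUX C ι) (P' : PUX C' ι), ∀ F' : (Fin (n + 1) → Γ) → ℝ,
    ∑ᶠ l ∈ {l : Fin (n + 1) → G × ι | (l 0).1 = 1}, P.wt χ l * F' (fun k => ρ (l k).1) =
      ∑ᶠ l ∈ {l : Fin (n + 1) → Γ × ι | (l 0).1 = 1}, P'.wt χ l * F' (fun k => (l k).1)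

/-- ROW R2a : the same functions form a partition of unity for both coverings. -/
def SpecPartC : Prop := ∀ (n : ℕ) (M X W G Γ I : Type) [TopologicalSpace M] [TopologicalSpace X]
  [TopologicalSpace W] [Group G] [Group Γ] [MulAction G X] [MulAction Γ W] [Fintype I] [T2Space X]
  [T2Space W] (C : Cov n M X G I) (C' : Cov n M W Γ I),
  (∀ i y, C'.π (C'.ψ i y) = C.π (C.ψ i y)) → ∀ χ : I → E n → ℝ, Part C χ → Part C' χ

/-- ROW R5 : the simplicial volume is bounded by the weights of every partition of unity on a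
covering `W` with group `Γ`, if the kernel of `ρ : G → Γ` is amenable (`X` is the universal
covering; from R1, R2, R2a and the proof of `X.Main.svX_le`). -/
def SpecSvAm : Prop := ∀ (n : ℕ) (M X W G Γ I : Type) [TopologicalSpace M] [TopologicalSpace X]
  [TopologicalSpace W] [Group G] [Group Γ] [MulAction G X] [MulAction Γ W] [Fintype I] [T2Space X]
  [T2Space W] [T2Space M] [SimplyConnectedSpace X] (C : Cov n M X G I) (C' : Cov n M W Γ I)
  (ρ : G →* Γ) (p : C(X, W)), Function.Surjective ρ → (∀ (g : G) x, p (g • x) = ρ g • p x) →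
  (∀ x, C'.π (p x) = C.π x) → (∀ i y, C'.π (C'.ψ i y) = C.π (C.ψ i y)) →
  Nonempty (GMean ρ.ker) → 1 ≤ n → ∀ χ : I → E n → ℝ, Part C χ → (∃ s : ℕ → X, MT.Dist G s) →
  ∀ P : PUX C' Unit,
  svX C ≤ ENNReal.ofReal (∑ᶠ l ∈ {l : Fin (n + 1) → Γ × Unit | (l 0).1 = 1}, |P.wt χ l|)

/-- ROW R3 : the fibre product, without simple connectivity. -/
def SpecFP2 : Prop := ∀ (Y X Z Γ : Type) [TopologicalSpace Y] [TopologicalSpace X]
  [TopologicalSpace Z] [Group Γ] [MulAction Γ Z] [T2Space Y] [T2Space X] [T2Space Z]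
  [CompactSpace Y] (f : C(Y, X)) (π : C(Z, X)),
  (∀ γ : Γ, Continuous fun z : Z => γ • z) → (∀ (γ : Γ) (z : Z), γ • z = z → γ = 1) →
  IsCoveringMap π → Function.Surjective π → (∀ x y : Z, π x = π y ↔ ∃ γ : Γ, γ • x = y) →
  ∃ (W : Type) (_ : TopologicalSpace W) (_ : MulAction Γ W) (π' : C(W, Y)) (F : C(W, Z)),
    T2Space W ∧ (∀ γ : Γ, Continuous fun w : W => γ • w) ∧
    (∀ (γ : Γ) (w : W), γ • w = w → γ = 1) ∧
    IsCoveringMap π' ∧ Function.Surjective π' ∧ (∀ x y : W, π' x = π' y ↔ ∃ γ : Γ, γ • x = y) ∧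
    (∀ (γ : Γ) (w : W), F (γ • w) = γ • F w) ∧ (∀ w, π (F w) = f (π' w)) ∧
    (∀ K : Set Z, IsCompact K → IsCompact (F ⁻¹' K)) ∧
    ∀ (V : Type) [TopologicalSpace V] (a : C(V, Y)) (b : C(V, Z)), (∀ v, π (b v) = f (a v)) →
      ∃ p : C(V, W), (∀ v, π' (p v) = a v) ∧ ∀ v, F (p v) = b v

/-- ROW R4 : the lift of `f` to the universal coverings `V → Y` (group `G`), `Z → X` (group `Γ`),
the homomorphism `ρ : G → Γ`, and an invariant mean on its kernel. -/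
def SpecLift : Prop := ∀ (Y X V Z G Γ : Type) [TopologicalSpace Y] [TopologicalSpace X]
  [TopologicalSpace V] [TopologicalSpace Z] [Group G] [Group Γ] [MulAction G V] [MulAction Γ Z]
  [T2Space V] [T2Space Z] [SimplyConnectedSpace V] [LocallyPathConnectedSpace V]
  [SimplyConnectedSpace Z] (f : C(Y, X)) (a : C(V, Y)) (π : C(Z, X)),
  (∀ g : G, Continuous fun v : V => g • v) → (∀ (g : G) (v : V), g • v = v → g = 1) →
  IsCoveringMap a → Function.Surjective a → (∀ x y : V, a x = a y ↔ ∃ g : G, g • x = y) →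
  (∀ γ : Γ, Continuous fun z : Z => γ • z) → (∀ (γ : Γ) (z : Z), γ • z = z → γ = 1) →
  IsCoveringMap π → Function.Surjective π → (∀ x y : Z, π x = π y ↔ ∃ γ : Γ, γ • x = y) →
  ∀ y0 : Y, Function.Surjective (FundamentalGroup.map f y0) →
  Nonempty (GMean (FundamentalGroup.map f y0).ker) →
  ∃ (b : C(V, Z)) (ρ : G →* Γ), (∀ v, π (b v) = f (a v)) ∧ (∀ (g : G) v, b (g • v) = ρ g • b v) ∧
    Function.Surjective ρ ∧ Nonempty (GMean ρ.ker)

end Vale.Agent.P223.R2.H84
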