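import Vale.Agent.P223.R2.H84.Asm
import Vale.Agent.P223.R2.H84.SpecAm

/-! P223, modifications: assembly for maps with amenable kernel on fundamental groups
(helper84). -/

namespace Vale.Agent.P223.R2.H84.Asm2

open scoped ContDiff Topology ENNReal Manifold
open MeasureTheory Vale.Agent.P223.H Vale.Agent.P223.X Vale.Agent.P223.X.WtX
  Vale.Agent.P223.X.DensX Vale.Agent.P223.X.NormX Vale.Agent.P223.R2.H84
  Vale.Agent.P223.R2.H84.Asm Set Filter Function

/-- all blocks -/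
structure Blk2 : Prop where
  lift : SpecLift
  fp2 : SpecFP2
  sva : SpecSvAm
  partc : SpecPartC
  pull : SpecPull
  pt : SpecPt
  good : SpecGood
  area : SpecAreaLe
  box : SpecBoxMap

/-- coverings of closed manifolds are locally path connected -/
theorem locPathCov {n : ℕ} {M X Γ I : Type} [TopologicalSpace M] [TopologicalSpace X] [Group Γ]
    [MulAction Γ X] (C : Cov n M X Γ I) : LocallyPathConnectedSpace X := by
  have h : ∀ x : X, ∃ e : OpenPartialHomeomorph X (E n), x ∈ e.source := by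
    intro x
    obtain ⟨γ, i, y, -, hx⟩ := C.cover x
    have he := Vale.Agent.P223.X.Y4.chart_emb C γ i
    refine ⟨(he.toOpenPartialHomeomorph _).symm, ?_⟩
    rw [OpenPartialHomeomorph.symm_source, he.toOpenPartialHomeomorph_target]
    exact ⟨y, hx⟩
  choose e he using h
  let _ : ChartedSpace (E n) X :=
    { atlas := Set.range e
      chartAt := e
      mem_chart_source := he
      chart_mem_atlas := fun x => ⟨x, rfl⟩ }
  exact ChartedSpace.locallyPathConnectedSpace (E n) X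

/-- The simplicial volume of `Y` is bounded by `κ^n d vol(X)`. -/
theorem sv_le (hB : Blk2) {n : ℕ} (hn : 4 ≤ n) {A : Matrix (Fin n) (Fin n) ℝ} (hA : A * A = -1)
    {X Y : Type} [TopologicalSpace X] [T2Space X] [CompactSpace X] [ConnectedSpace X]
    [MeasurableSpace X] [BorelSpace X] [TopologicalSpace Y] [T2Space Y] [CompactSpace Y]
    [ConnectedSpace Y] [MeasurableSpace Y] [BorelSpace Y] {c : X → K.Ch n X} {c' : Y → K.Ch n Y}
    (hc : K.Atl A c) (hc' : K.Atl A c') (f : C(Y, X)) (d : ℕ) (hf : Hol A c' c f)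
    (hd : DegEq c' c f d) (y0 : Y)
    (hsur : Surjective (FundamentalGroup.map f y0))
    (ham : Nonempty (GMean (FundamentalGroup.map f y0).ker))
    {g : Y → (Fin n → ℝ) → Matrix (Fin n) (Fin n) ℝ}
    {g0 : X → (Fin n → ℝ) → Matrix (Fin n) (Fin n) ℝ}
    {μ : Measure Y} {μ0 : Measure X} (hg : K.Herm A c' g) (hμ : K.Vol c' g μ)
    (hg0 : K.Herm A c g0) (hμ0 : K.Vol c g0 μ0)
    (hR : ∀ a p x, K.At (c a) p x → (g0 a x + K.ric (g0 a) x).PosSemidef) :
    K.sv c' ≤ ENNReal.ofReal (J.kap n ^ n) * (d * μ0 Set.univ) := by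
  have hu := Vale.Agent.P223.X.hu
  have hb := Vale.Agent.P223.X.hb
  have hn1 : 1 ≤ n := by omega
  have hJ : J.Atl c := H959.atl hA hc hg0
  have hJ' : J.Atl c' := H959.atl hA hc' hg
  have hM : J.Met c g0 := H959.met hc hg0
  have hM' : J.Met c' g := H959.met hc' hg
  have hV : J.Vol c g0 μ0 := H959.vol hμ0
  have hV' : J.Vol c' g μ := H959.vol hμ
  have hRic := H959.ricGe hg0 hR
  have := pathConn hJ'
  obtain ⟨I, fI, ⟨B⟩⟩ := hu.box n X c hJ
  obtain ⟨I', fI', ⟨B'⟩⟩ := hu.box n Y c' hJ'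
  obtain ⟨Z, Γ, tZ, gΓ, aΓ, π, scZ, t2Z, h1, h2, h3, h4, h5⟩ := hu.uc n X fun m => by
    obtain ⟨i, y, -, h⟩ := B.cover m
    exact ⟨B.β i, hu.emb n X I c B i, y, h⟩
  obtain ⟨C, hCπ, hC⟩ := hu.cov n X Z Γ I c B π hJ h1 h2 h3 h4 h5
  obtain ⟨V, Δ, tV, gΔ, aΔ, a, scV, t2V, l1, l2, l3, l4, l5⟩ := hu.uc n Y fun m => by
    obtain ⟨i, y, -, h⟩ := B'.cover m
    exact ⟨B'.β i, hu.emb n Y I' c' B' i, y, h⟩
  obtain ⟨CV, hCVa, hCV⟩ := hu.cov n Y V Δ I' c' B' a hJ' l1 l2 l3 l4 l5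
  have : LocallyPathConnectedSpace V := locPathCov CV
  obtain ⟨b, ρ, hb1, hb2, hρ, hmean⟩ := hB.lift Y X V Z Δ Γ f a π l1 l2 l3 l4 l5 h1 h2 h3 h4 h5
    y0 hsur ham
  obtain ⟨W, tW, aW, π', F, t2W, k1, k2, k3, k4, k5, hF1, hF2, hF3, huniv⟩ :=
    hB.fp2 Y X Z Γ f π h1 h2 h3 h4 h5
  obtain ⟨p, hp1, hp2⟩ := huniv V a b hb1
  have hpρ : ∀ (g : Δ) v, p (g • v) = ρ g • p v := by
    intro g v
    have e1 : π' (p v) = π' (p (g • v)) := by
      rw [hp1, hp1]
      exact (l5 v (g • v)).2 ⟨g, rfl⟩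
    obtain ⟨γ, hγ⟩ := (k5 _ _).1 e1
    have e2 : γ • b v = ρ g • b v := by
      rw [← hb2, ← hp2 (g • v), ← hγ, hF1, hp2]
    have e3 : (ρ g)⁻¹ * γ = 1 := h2 _ (b v) (by rw [mul_smul, e2, inv_smul_smul])
    rw [← hγ, inv_mul_eq_one.1 e3]
  have hps : Surjective p := by
    intro w
    obtain ⟨v, hv⟩ := l4 (π' w)
    have e1 : π' (p v) = π' w := by rw [hp1, hv]
    obtain ⟨γ, hγ⟩ := (k5 _ _).1 e1
    obtain ⟨g, rfl⟩ := hρ γ
    exact ⟨g • v, by rw [hpρ, hγ]⟩
  have : ConnectedSpace W := hps.connectedSpace p.continuous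
  obtain ⟨C', hCπ', hC'⟩ := hu.cov n Y W Γ I' c' B' π' hJ' k1 k2 k3 k4 k5
  have hCC : ∀ i y, C'.π (C'.ψ i y) = CV.π (CV.ψ i y) := fun i y => by rw [hC', hCV]
  have hfπ : ∀ w, C.π (F w) = f (C'.π w) := fun w => by rw [hCπ, hCπ']; exact hF2 w
  obtain ⟨hO, hΦ⟩ := hB.box n X Y Z W Γ I I' c c' B B' C C' f F hJ hJ' hC hC' hF1 hfπ hF3
    (hol_smooth hf)
  obtain ⟨q, hqc, hq0, hqA, hqd⟩ := hB.area n A X Y c c' f d g g0 μ μ0 hA hc hc' hg hg0 hμ hμ0 hf hd
  have hG : MetX C (B.G g0) := (hu.met n X Z Γ I c B C hJ hC).1 g0 hM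
  have hG' : MetX C' (B'.G g) := (hu.met n Y W Γ I' c' B' C' hJ' hC').1 g hM'
  have hν' : VolM C' (B'.G g) μ := hu.vol n Y W Γ I' c' B' C' g μ hJ' hC' hM' hV'
  have : Nonempty V := inferInstance
  have hinf := hu.inf n Y V Δ I' CV hn1
  obtain ⟨χ, hχV⟩ := hb.part n Y V Δ I' CV
  have hχ : Part C' χ := hB.partc n Y V W Δ Γ I' CV C' hCC χ hχV
  let _ : MeasurableSpace Z := borel Z
  have : BorelSpace Z := ⟨rfl⟩
  set κ : ℝ≥0∞ := ENNReal.ofReal (J.kap n ^ n) with hκ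
  -- the main estimate
  have key : ∀ δ : ℝ, 0 < δ → svX CV ≤ d * (κ * μ0 Set.univ + ENNReal.ofReal δ) := by
    intro δ hδ
    obtain ⟨P, hP, hPE⟩ := hB.good n hn X c hJ Z Γ I B C hC g0 μ0 hM hV hRic δ hδ
    obtain ⟨P', hP'⟩ := hB.pull n X Y Z W Γ I I' C C' F hO P
    set φ := P.φ () with hφ
    set ν : Measure Y := μ.withDensity fun p => ENNReal.ofReal (q p) with hν
    set H : X → ℝ≥0∞ := fun m => ENNReal.ofReal (C.dn (SS C (B.G g0) φ) m ^ n) with hH
    have hHc : Continuous fun m => C.dn (SS C (B.G g0) φ) m ^ n :=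
      (IntM.continuous_dn C (fun γ x => SS_inv φ γ x) (cont_SS hG (P.smooth ()) (P.supp ()))).pow n
    have hHm : Measurable H := hHc.measurable.ennreal_ofReal
    have hHπ : ∀ z, H (C.π z) = (∑' γ : Γ, sg C (B.G g0) φ (γ • z)) ^ n := by
      intro z
      simp only [hH]
      rw [IntM.dn_eq C fun γ x => SS_inv φ γ x, SS_eq hG (P.supp ())]
    have e1 := hB.sva n Y V W Δ Γ I' CV C' ρ p hρ hpρ (fun v => by rw [hCπ', hCVa, hp1]) hCC hmean
      hn1 χ hχV hinf P'
    have e2 : ENNReal.ofReal (∑ᶠ l ∈ {l : Fin (n + 1) → Γ × Unit | (l 0).1 = 1}, |P'.wt χ l|) ≤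
        ∫⁻ m, H (f m) ∂ν := by
      refine NormG.main n Y W Γ I' C' χ ν (fun i y => ENNReal.ofReal (q (B'.β i y) *
        dens (B'.G g i) y)) hn1 hχ (fun i k => ?_) P' (fun w => ?_)
        (fun w => sg C (B.G g0) φ (F w)) (fun l hl i γ y => ?_) (fun m => H (f m)) (fun w => ?_)
      · have h6 := lintegral_chart hG' hν' i fun m => ENNReal.ofReal (q m) * k m
        have h7 : ∫⁻ m in Set.range fun y => C'.π (C'.ψ i y), k m ∂ν =
            ∫⁻ m in Set.range fun y => C'.π (C'.ψ i y), ENNReal.ofReal (q m) * k m ∂μ := by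
          rw [hν, setLIntegral_withDensity_eq_setLIntegral_mul_non_measurable]
          · rfl
          · exact hqc.measurable.ennreal_ofReal
          · exact (emb_pi C' i).isOpen_range.measurableSet
          · exact Eventually.of_forall fun _ => ENNReal.ofReal_lt_top
        rw [h7, ← h6]
        refine lintegral_congr fun y => ?_
        rw [← hC' i y, ENNReal.ofReal_mul (hq0 _)]
        ring
      · rw [hP']
        exact hP _
      · obtain ⟨j, γ₀, Φ, hΦ1, hΦ2, hΦ3⟩ := hΦ i y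
        have h6 := hΦ3 g g0 q hM' hM hqd
        have h7 := hB.pt n X Y Z W Γ I I' C C' F hO (B.G g0) hG P P' hP hP' l hl i γ y j γ₀ Φ
          (hΦ1.differentiableAt (by simp)) hΦ2
        rw [h6] at h7
        exact h7
      · rw [← hfπ, hHπ]
        simp only [hF1]
    have e3 : ∫⁻ m, H (f m) ∂ν ≤ d * ∫⁻ x, H x ∂μ0 := by
      refine le_trans (le_of_eq ?_) (hqA H hHm)
      rw [hν, lintegral_withDensity_eq_lintegral_mul_non_measurable]
      · exact lintegral_congr fun m => mul_comm (ENNReal.ofReal (q m)) (H (f m))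
      · exact hqc.measurable.ennreal_ofReal
      · exact Eventually.of_forall fun _ => ENNReal.ofReal_lt_top
    exact e1.trans (e2.trans (e3.trans (mul_le_mul_right hPE _)))
  have h8 : svX CV ≤ κ * (d * μ0 Set.univ) := by
    refine ENNReal.le_of_forall_pos_le_add fun δ hδ _ => ?_
    have hd1 : (0 : ℝ) < d + 1 := by positivity
    have h9 := key (δ / (d + 1)) (by positivity)
    refine h9.trans ?_
    rw [mul_add]
    refine add_le_add (le_of_eq (by ring)) ?_
    calc (d : ℝ≥0∞) * ENNReal.ofReal (δ / (d + 1))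
        = ENNReal.ofReal (d * (δ / (d + 1))) := by
          rw [ENNReal.ofReal_mul (by positivity), ENNReal.ofReal_natCast]
      _ ≤ ENNReal.ofReal δ := by
          refine ENNReal.ofReal_le_ofReal ?_
          rw [mul_div_assoc', div_le_iff₀ hd1]
          have : (0 : ℝ) < δ := by exact_mod_cast hδ
          nlinarith only [this]
      _ = δ := ENNReal.ofReal_coe_nnreal
  exact H959.sv_le.trans ((hu.sv n Y V Δ I' c' B' CV hJ' hCV).trans h8)

end Vale.Agent.P223.R2.H84.Asm2
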