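import Vale.Agent.P223.R2.H84.Asm2
import Vale.Agent.P223.R2.H84.SpecDeg
import Vale.Agent.P223.R2.H84.SpecSub

/-! P223, modifications: assembly for holomorphic maps with amenable kernel on fundamental
groups, which need not be surjective on fundamental groups (helper84). -/

namespace Vale.Agent.P223.R2.H84.Asm4

open scoped ContDiff Topology ENNReal Manifold
open MeasureTheory Vale.Agent.P223.H Vale.Agent.P223.X Vale.Agent.P223.X.WtX
  Vale.Agent.P223.X.DensX Vale.Agent.P223.X.NormX Vale.Agent.P223.R2.H84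
  Vale.Agent.P223.R2.H84.Asm Vale.Agent.P223.R2.H84.Asm2 Set Filter Function

/-- all blocks -/
structure BlkC : Prop where
  lift : SpecLift2
  fp2 : SpecFP2
  comp : SpecComp
  subp : SpecSubP
  sva : SpecSvAm
  partc : SpecPartC
  pull : SpecPull
  pt : SpecPt
  good : SpecGood
  box : SpecBoxMap

/-- the kernel of the restriction of the range -/
theorem mean_range {Δ Γ : Type} [Group Δ] [Group Γ] {ρ : Δ →* Γ} (h : Nonempty (GMean ρ.ker)) :
    Nonempty (GMean ρ.rangeRestrict.ker) := by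
  rw [MonoidHom.ker_rangeRestrict]
  exact h

/-- closed manifolds are locally path connected -/
theorem locPathY {n : ℕ} {Y : Type} [TopologicalSpace Y] {c : Y → J.Ch n Y}
    (hc : J.Atl c) : LocallyPathConnectedSpace Y := by
  let _ : ChartedSpace (Fin n → ℝ) Y :=
    { atlas := Set.range c
      chartAt := c
      mem_chart_source := fun x => (hc x).1
      chart_mem_atlas := fun x => ⟨x, rfl⟩ }
  exact ChartedSpace.locallyPathConnectedSpace (Fin n → ℝ) Y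

/-- The simplicial volume of `Y` is bounded by `κ^n d vol (X, g0)`, if `q` is the relative Jacobian
determinant and `∫ h (f) q ≤ d ∫ h` for all `h`. -/
theorem sv_le (hB : BlkC) {n : ℕ} (hn : 4 ≤ n) {A : Matrix (Fin n) (Fin n) ℝ} (hA : A * A = -1)
    {X Y : Type} [TopologicalSpace X] [T2Space X] [CompactSpace X] [ConnectedSpace X]
    [MeasurableSpace X] [BorelSpace X] [TopologicalSpace Y] [T2Space Y] [CompactSpace Y]
    [ConnectedSpace Y] [MeasurableSpace Y] [BorelSpace Y] {c : X → K.Ch n X} {c' : Y → K.Ch n Y}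
    (hc : K.Atl A c) (hc' : K.Atl A c') (f : C(Y, X)) (hf : Hol A c' c f) (y0 : Y)
    (ham : Nonempty (GMean (FundamentalGroup.map f y0).ker))
    {g : Y → (Fin n → ℝ) → Matrix (Fin n) (Fin n) ℝ}
    {g0 : X → (Fin n → ℝ) → Matrix (Fin n) (Fin n) ℝ}
    {μ : Measure Y} {μ0 : Measure X} (hg : K.Herm A c' g) (hμ : K.Vol c' g μ)
    (hg0 : K.Herm A c g0) (hμ0 : K.Vol c g0 μ0)
    (hR : ∀ a p x, K.At (c a) p x → (g0 a x + K.ric (g0 a) x).PosSemidef) {q : Y → ℝ}
    (hq : RelJ c c' f g g0 q) {d : NNReal}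
    (hqA : ∀ h : X → ℝ≥0∞, Measurable h →
      ∫⁻ p, h (f p) * ENNReal.ofReal (q p) ∂μ ≤ d * ∫⁻ x, h x ∂μ0) :
    K.sv c' ≤ ENNReal.ofReal (J.kap n ^ n) * (d * μ0 Set.univ) := by
  have hu := Vale.Agent.P223.X.hu
  have hb := Vale.Agent.P223.X.hb
  have hn1 : 1 ≤ n := by omega
  have hJ : J.Atl c := H959.atl hA hc hg0
  have hJ' : J.Atl c' := H959.atl hA hc' hg
  have hM : J.Met c g0 := H959.met hc hg0
  have hM' : J.Met c' g := H959.met hc' hg
  have hV : J.Vol c g0 μ0 := H959.vol hμ0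
  have hV' : J.Vol c' g μ := H959.vol hμ
  have hRic := H959.ricGe hg0 hR
  have := pathConn hJ'
  obtain ⟨I, fI, ⟨B⟩⟩ := hu.box n X c hJ
  obtain ⟨I', fI', ⟨B'⟩⟩ := hu.box n Y c' hJ'
  obtain ⟨Z, Γ, tZ, gΓ, aΓ, π, scZ, t2Z, h1, h2, h3, h4, h5⟩ := hu.uc n X fun m => by
    obtain ⟨i, y, -, h⟩ := B.cover m
    exact ⟨B.β i, hu.emb n X I c B i, y, h⟩
  obtain ⟨C, hCπ, hC⟩ := hu.cov n X Z Γ I c B π hJ h1 h2 h3 h4 h5
  obtain ⟨V, Δ, tV, gΔ, aΔ, a, scV, t2V, l1, l2, l3, l4, l5⟩ := hu.uc n Y fun m => by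
    obtain ⟨i, y, -, h⟩ := B'.cover m
    exact ⟨B'.β i, hu.emb n Y I' c' B' i, y, h⟩
  obtain ⟨CV, hCVa, hCV⟩ := hu.cov n Y V Δ I' c' B' a hJ' l1 l2 l3 l4 l5
  have : LocallyPathConnectedSpace V := locPathCov CV
  have : LocallyPathConnectedSpace Y := locPathY hJ'
  obtain ⟨b, ρ, hb1, hb2, hmean⟩ := hB.lift Y X V Z Δ Γ f a π l1 l2 l3 l4 l5 h1 h2 h3 h4 h5
    y0 ham
  obtain ⟨W, tW, aW, π', F, t2W, k1, k2, k3, k4, k5, hF1, hF2, hF3, huniv⟩ :=
    hB.fp2 Y X Z Γ f π h1 h2 h3 h4 h5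
  obtain ⟨p, hp1, hp2⟩ := huniv V a b hb1
  have hpρ : ∀ (g : Δ) v, p (g • v) = ρ g • p v := by
    intro g v
    have e1 : π' (p v) = π' (p (g • v)) := by
      rw [hp1, hp1]
      exact (l5 v (g • v)).2 ⟨g, rfl⟩
    obtain ⟨γ, hγ⟩ := (k5 _ _).1 e1
    have e2 : γ • b v = ρ g • b v := by
      rw [← hb2, ← hp2 (g • v), ← hγ, hF1, hp2]
    have e3 : (ρ g)⁻¹ * γ = 1 := h2 _ (b v) (by rw [mul_smul, e2, inv_smul_smul])
    rw [← hγ, inv_mul_eq_one.1 e3]
  obtain ⟨W0, tW0, aW0, ι, p0, t2W0, hιe, hι1, m1, m2, m3, m4, m5, hp0, hp0s⟩ :=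
    hB.comp Y V W Δ Γ a π' ρ p l1 l2 l3 l4 l5 k1 k2 k3 k4 k5 hp1 hpρ
  have : ConnectedSpace W0 := hp0s.connectedSpace p0.continuous
  obtain ⟨C0, hC0π, hC0⟩ := hu.cov n Y W0 ρ.range I' c' B' (π'.comp ι) hJ' m1 m2 m3 m4 m5
  obtain ⟨C', hCπ', hC'⟩ := hu.cov n Y W Γ I' c' B' π' hJ' k1 k2 k3 k4 k5
  have hCC : ∀ i y, C0.π (C0.ψ i y) = CV.π (CV.ψ i y) := fun i y => by rw [hC0, hCV]
  have hCC' : ∀ i y, C0.π (C0.ψ i y) = C'.π (C'.ψ i y) := fun i y => by rw [hC0, hC']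
  have hp0ρ : ∀ (g : Δ) v, p0 (g • v) = ρ.rangeRestrict g • p0 v := by
    intro g v
    refine hιe.injective ?_
    rw [hp0, hι1, hp0, hpρ]
    rfl
  have hfπ : ∀ w, C.π (F w) = f (C'.π w) := fun w => by rw [hCπ, hCπ']; exact hF2 w
  obtain ⟨hO, hΦ⟩ := hB.box n X Y Z W Γ I I' c c' B B' C C' f F hJ hJ' hC hC' hF1 hfπ hF3
    (hol_smooth hf)
  obtain ⟨hqc, hq0, hqd⟩ := hq
  have hG : MetX C (B.G g0) := (hu.met n X Z Γ I c B C hJ hC).1 g0 hM
  have hG' : MetX C0 (B'.G g) := (hu.met n Y W0 ρ.range I' c' B' C0 hJ' hC0).1 g hM'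
  have hν' : VolM C0 (B'.G g) μ := hu.vol n Y W0 ρ.range I' c' B' C0 g μ hJ' hC0 hM' hV'
  have : Nonempty V := inferInstance
  have hinf := hu.inf n Y V Δ I' CV hn1
  obtain ⟨χ, hχV⟩ := hb.part n Y V Δ I' CV
  have hχ : Part C0 χ := hB.partc n Y V W0 Δ ρ.range I' CV C0 hCC χ hχV
  let _ : MeasurableSpace Z := borel Z
  have : BorelSpace Z := ⟨rfl⟩
  set κ : ℝ≥0∞ := ENNReal.ofReal (J.kap n ^ n) with hκ
  -- the main estimate
  have key : ∀ δ : ℝ, 0 < δ → svX CV ≤ d * (κ * μ0 Set.univ + ENNReal.ofReal δ) := by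
    intro δ hδ
    obtain ⟨P, hP, hPE⟩ := hB.good n hn X c hJ Z Γ I B C hC g0 μ0 hM hV hRic δ hδ
    obtain ⟨P', hP'⟩ := hB.pull n X Y Z W Γ I I' C C' F hO P
    set φ := P.φ () with hφ
    set ν : Measure Y := μ.withDensity fun p => ENNReal.ofReal (q p) with hν
    set H : X → ℝ≥0∞ := fun m => ENNReal.ofReal (C.dn (SS C (B.G g0) φ) m ^ n) with hH
    have hHc : Continuous fun m => C.dn (SS C (B.G g0) φ) m ^ n :=
      (IntM.continuous_dn C (fun γ x => SS_inv φ γ x) (cont_SS hG (P.smooth ()) (P.supp ()))).pow n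
    have hHm : Measurable H := hHc.measurable.ennreal_ofReal
    have hHπ : ∀ z, H (C.π z) = (∑' γ : Γ, sg C (B.G g0) φ (γ • z)) ^ n := by
      intro z
      simp only [hH]
      rw [IntM.dn_eq C fun γ x => SS_inv φ γ x, SS_eq hG (P.supp ())]
    set s : W → ℝ≥0∞ := fun w => sg C (B.G g0) φ (F w) with hs
    set D : I' → E n → ℝ≥0∞ := fun i y => ENNReal.ofReal (q (B'.β i y) * dens (B'.G g i) y) with hD
    have hP'0 : ∀ w, 0 ≤ P'.φ () w := fun w => by
      rw [hP']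
      exact hP _
    obtain ⟨P0, s0, hP0, hpt0, hs0⟩ := hB.subp n Y W W0 Γ I' ρ.range C' C0 ι hιe hι1
      (fun w => by rw [hCπ', hC0π]; rfl) hCC' hn1 P' hP'0 s D (fun l hl i γ y => by
        obtain ⟨j, γ₀, Φ, hΦ1, hΦ2, hΦ3⟩ := hΦ i y
        have h6 := hΦ3 g g0 q hM' hM hqd
        have h7 := hB.pt n X Y Z W Γ I I' C C' F hO (B.G g0) hG P P' hP hP' l hl i γ y j γ₀ Φ
          (hΦ1.differentiableAt (by simp)) hΦ2
        rw [h6] at h7
        exact h7)
    have e1 := hB.sva n Y V W0 Δ ρ.range I' CV C0 ρ.rangeRestrict p0 ρ.rangeRestrict_surjective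
      hp0ρ (fun v => by
        rw [hC0π, hCVa]
        show π' (ι (p0 v)) = a v
        rw [hp0, hp1]) hCC (mean_range hmean) hn1 χ hχV hinf P0
    -- the integrand on `Y`
    have hinv : ∀ (γ : ρ.range) (w : W0), ∑' δ : ρ.range, s0 (δ • γ • w) =
        ∑' δ : ρ.range, s0 (δ • w) := by
      intro γ w
      simp only [smul_smul]
      exact (Equiv.mulRight γ).tsum_eq fun δ : ρ.range => s0 (δ • w)
    set h0 : Y → ℝ≥0∞ := fun m => (∑' δ : ρ.range, s0 (δ • Function.surjInv C0.surj m)) ^ n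
      with hh0
    have hh0π : ∀ w, h0 (C0.π w) = (∑' δ : ρ.range, s0 (δ • w)) ^ n := by
      intro w
      have h6 : C0.π (Function.surjInv C0.surj (C0.π w)) = C0.π w := Function.surjInv_eq C0.surj _
      obtain ⟨γ, hγ⟩ := (C0.orb _ _).1 h6
      have h7 := hinv γ (Function.surjInv C0.surj (C0.π w))
      rw [hγ] at h7
      simp only [hh0]
      rw [h7]
    have hh0H : ∀ m, h0 m ≤ H (f m) := by
      intro m
      obtain ⟨w, rfl⟩ := C0.surj m
      have h6 : C0.π w = C'.π (ι w) := by rw [hCπ', hC0π]; rfl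
      rw [hh0π, h6, ← hfπ, hHπ]
      refine pow_le_pow_left₀ zero_le ((hs0 w).trans (le_of_eq ?_)) n
      simp only [hs, hF1]
    have e2 : ENNReal.ofReal (∑ᶠ l ∈ {l : Fin (n + 1) → ρ.range × Unit | (l 0).1 = 1},
        |P0.wt χ l|) ≤ ∫⁻ m, H (f m) ∂ν := by
      refine le_trans (NormG.main n Y W0 ρ.range I' C0 χ ν D hn1 hχ (fun i k => ?_) P0 hP0
        s0 hpt0 h0 hh0π) (lintegral_mono hh0H)
      have h6 := lintegral_chart hG' hν' i fun m => ENNReal.ofReal (q m) * k m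
      have h7 : ∫⁻ m in Set.range fun y => C0.π (C0.ψ i y), k m ∂ν =
          ∫⁻ m in Set.range fun y => C0.π (C0.ψ i y), ENNReal.ofReal (q m) * k m ∂μ := by
        rw [hν, setLIntegral_withDensity_eq_setLIntegral_mul_non_measurable]
        · rfl
        · exact hqc.measurable.ennreal_ofReal
        · exact (emb_pi C0 i).isOpen_range.measurableSet
        · exact Eventually.of_forall fun _ => ENNReal.ofReal_lt_top
      rw [h7, ← h6]
      refine lintegral_congr fun y => ?_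
      simp only [hD]
      rw [← hC0 i y, ENNReal.ofReal_mul (hq0 _)]
      ring
    have e3 : ∫⁻ m, H (f m) ∂ν ≤ d * ∫⁻ x, H x ∂μ0 := by
      refine le_trans (le_of_eq ?_) (hqA H hHm)
      rw [hν, lintegral_withDensity_eq_lintegral_mul_non_measurable]
      · exact lintegral_congr fun m => mul_comm (ENNReal.ofReal (q m)) (H (f m))
      · exact hqc.measurable.ennreal_ofReal
      · exact Eventually.of_forall fun _ => ENNReal.ofReal_lt_top
    exact e1.trans (e2.trans (e3.trans (mul_le_mul_right hPE _)))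
  have h8 : svX CV ≤ κ * (d * μ0 Set.univ) := by
    refine ENNReal.le_of_forall_pos_le_add fun δ hδ _ => ?_
    have hd1 : (0 : ℝ) < d + 1 := by positivity
    have h9 := key (δ / (d + 1)) (by positivity)
    refine h9.trans ?_
    rw [mul_add]
    refine add_le_add (le_of_eq (by ring)) ?_
    calc (d : ℝ≥0∞) * ENNReal.ofReal (δ / (d + 1))
        = ENNReal.ofReal (d * (δ / (d + 1))) := by
          rw [ENNReal.ofReal_mul (by positivity), ENNReal.ofReal_coe_nnreal]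
      _ ≤ ENNReal.ofReal δ := by
          refine ENNReal.ofReal_le_ofReal ?_
          rw [mul_div_assoc', div_le_iff₀ hd1]
          have : (0 : ℝ) < δ := by exact_mod_cast hδ
          nlinarith only [this]
      _ = δ := ENNReal.ofReal_coe_nnreal
  exact H959.sv_le.trans ((hu.sv n Y V Δ I' c' B' CV hJ' hCV).trans h8)

end Vale.Agent.P223.R2.H84.Asm4
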