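import Vale.Agent.P223.X.NormX
import Vale.Agent.P223.R2.H84.Spec

/-! P223, modifications: block B2, the general norm estimate (helper84). -/

namespace Vale.Agent.P223.R2.H84.NormG

open scoped ContDiff Topology ENNReal
open MeasureTheory Vale.Agent.P223.H Vale.Agent.P223.X Vale.Agent.P223.X.WtX
  Vale.Agent.P223.X.DensX Vale.Agent.P223.X.NormX Set Filter Function

/-- Block B2. -/
theorem main : SpecNormG := by
  classical
  intro n M X Γ I _ _ _ _ _ _ _ _ _ _ C χ ν D hn hχ h1 P hP s hpt h hh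
  set φ := P.φ () with hφdef
  -- the sums
  set H : X → ℝ≥0∞ := fun x => ∑' γ : Γ, s (γ • x) with hH
  have hHinv : ∀ (γ : Γ) x, H (γ • x) = H x := by
    intro γ x
    simp only [hH, smul_smul]
    exact (Equiv.mulRight γ).tsum_eq fun δ : Γ => s (δ • x)
  have hHi : ∀ x, ∑' γ : Γ, s (γ⁻¹ • x) = H x := fun x =>
    (Equiv.inv Γ).tsum_eq fun δ : Γ => s (δ • x)
  have hone : ∀ x, ∑' γ : Γ, ENNReal.ofReal (φ (γ • x)) = 1 := by
    intro x
    have h1 : ∑ᶠ γ : Γ, φ (γ⁻¹ • x) = 1 := by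
      have := P.sum x
      simpa using this
    have hf : (Function.support fun γ : Γ => φ (γ⁻¹ • x)).Finite := by
      by_contra hinf
      rw [finsum_of_infinite_support hinf] at h1
      exact zero_ne_one h1
    rw [finsum_eq_sum_of_support_subset _ (s := hf.toFinset) (by simp)] at h1
    rw [← (Equiv.inv Γ).tsum_eq fun δ : Γ => ENNReal.ofReal (φ (δ • x))]
    simp only [Equiv.inv_apply]
    rw [tsum_eq_sum (s := hf.toFinset), ← ENNReal.ofReal_sum_of_nonneg, h1, ENNReal.ofReal_one]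
    · exact fun γ _ => hP _
    · intro γ hγ
      have : φ (γ⁻¹ • x) = 0 := by simpa using hγ
      rw [this, ENNReal.ofReal_zero]
  -- the partition of unity on `M`
  set b : I → M → ℝ≥0∞ := fun i m => ENNReal.ofReal (C.dn (fun x => ∑ᶠ γ : Γ,
    C.ex i (χ i) (γ • x)) m) with hb
  have hex0 : ∀ i x, 0 ≤ C.ex i (χ i) x := by
    intro i x
    unfold Cov.ex
    split_ifs
    · exact hχ.nonneg i _
    · exact le_rfl
  have hbsum : ∀ m, ∑ i, b i m = 1 := by
    intro m
    simp only [hb, Cov.dn]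
    rw [← ENNReal.ofReal_sum_of_nonneg fun i _ => finsum_nonneg fun γ => hex0 i _,
      hχ.sum, ENNReal.ofReal_one]
  have hdn : ∀ (F : X → ℝ) (_ : ∀ (γ : Γ) x, F (γ • x) = F x) (x : X),
      C.dn F (C.π x) = F x := by
    intro F hF x
    have h1 : C.π (Function.surjInv C.surj (C.π x)) = C.π x := Function.surjInv_eq C.surj _
    obtain ⟨γ, hγ⟩ := (C.orb _ _).1 h1
    rw [Cov.dn, ← hF γ, hγ]
  have hbψ : ∀ i y, b i (C.π (C.ψ i y)) = ENNReal.ofReal (χ i y) := by
    intro i y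
    simp only [hb]
    rw [hdn]
    · congr 1
      rw [finsum_eq_single _ (1 : Γ)]
      · rw [one_smul, ex_ψ]
      · intro γ hγ
        unfold Cov.ex
        rw [if_neg]
        rintro ⟨z, hz⟩
        exact hγ (C.inj i γ y z hz.symm)
    · intro γ x
      simp only [smul_smul]
      exact finsum_comp_equiv (Equiv.mulRight γ) (f := fun δ : Γ => C.ex i (χ i) (δ • x))
  have hhψ : ∀ x, h (C.π x) = H x ^ n := hh
  -- main estimate
  have key : ∑ i, ∑' γ : Γ, ∫⁻ y, ENNReal.ofReal (χ i y) *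
      (ENNReal.ofReal (φ (γ • C.ψ i y)) * H (γ • C.ψ i y) ^ n) * D i y ≤
      ∫⁻ m, h m ∂ν := by
    calc ∑ i, ∑' γ : Γ, ∫⁻ y, ENNReal.ofReal (χ i y) *
      (ENNReal.ofReal (φ (γ • C.ψ i y)) * H (γ • C.ψ i y) ^ n) * D i y
        ≤ ∑ i, ∫⁻ y, ∑' γ : Γ, ENNReal.ofReal (χ i y) *
      (ENNReal.ofReal (φ (γ • C.ψ i y)) * H (γ • C.ψ i y) ^ n) * D i y :=
          Finset.sum_le_sum fun i _ => tsum_lintegral_le _ _
      _ = ∑ i, ∫⁻ y, b i (C.π (C.ψ i y)) * h (C.π (C.ψ i y)) * D i y := by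
          refine Finset.sum_congr rfl fun i _ => lintegral_congr fun y => ?_
          simp only [hHinv]
          rw [ENNReal.tsum_mul_right, ENNReal.tsum_mul_left, ENNReal.tsum_mul_right, hone,
            one_mul, hbψ, hhψ]
      _ = ∑ i, ∫⁻ m in range fun y => C.π (C.ψ i y), b i m * h m ∂ν := by
          refine Finset.sum_congr rfl fun i _ => ?_
          exact h1 i fun m => b i m * h m
      _ ≤ ∑ i, ∫⁻ m, b i m * h m ∂ν := Finset.sum_le_sum fun i _ => setLIntegral_le_lintegral _ _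
      _ ≤ ∫⁻ m, ∑ i, b i m * h m ∂ν := sum_lintegral_le _ _ _
      _ = ∫⁻ m, h m ∂ν := by
          refine lintegral_congr fun m => ?_
          rw [← Finset.sum_mul, hbsum, one_mul]
  refine le_trans ?_ key
  -- the weights
  have wt_le' : ∀ l : Fin (n + 1) → Γ × Unit, (l 0).1 = 1 →
      ENNReal.ofReal |P.wt χ l| ≤ ∑ i, ∑' γ : Γ, ∫⁻ y, ENNReal.ofReal (χ i y) *
        (ENNReal.ofReal (φ (γ • C.ψ i y)) *
        ∏ k : Fin n, s ((l k.succ).1⁻¹ • γ • C.ψ i y)) * D i y := by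
    intro l hl
    rw [← Real.enorm_eq_ofReal_abs, PUX.wt, wtX]
    refine (enorm_sum_le _ _).trans (Finset.sum_le_sum fun i _ => ?_)
    refine (enorm_finsum_le _).trans (ENNReal.tsum_le_tsum fun γ => ?_)
    refine (enorm_integral_le_lintegral_enorm _).trans (lintegral_mono fun y => ?_)
    have h3 := hpt l hl i γ y
    rw [Real.enorm_eq_ofReal_abs, mul_assoc, abs_mul, abs_of_nonneg (hχ.nonneg i y),
      ENNReal.ofReal_mul (hχ.nonneg i y)]
    simp only [mul_assoc] at h3 ⊢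
    exact mul_le_mul_right h3 _
  -- the sum of the weights
  by_cases hfin : ({l : Fin (n + 1) → Γ × Unit | (l 0).1 = 1} ∩
      Function.support fun l : Fin (n + 1) → Γ × Unit => |P.wt χ l|).Finite
  · have hF1 : ∀ l ∈ hfin.toFinset, (l 0).1 = 1 := fun l hl =>
      ((Set.Finite.mem_toFinset hfin).1 hl).1
    rw [finsum_mem_eq_sum _ hfin]
    calc ENNReal.ofReal (∑ l ∈ hfin.toFinset, |P.wt χ l|)
        = ∑ l ∈ hfin.toFinset, ENNReal.ofReal |P.wt χ l| :=
          ENNReal.ofReal_sum_of_nonneg fun l _ => abs_nonneg _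
      _ ≤ ∑ l ∈ hfin.toFinset, ∑ i, ∑' γ : Γ, ∫⁻ y, ENNReal.ofReal (χ i y) *
          (ENNReal.ofReal (φ (γ • C.ψ i y)) *
          ∏ k : Fin n, s ((l k.succ).1⁻¹ • γ • C.ψ i y)) * D i y :=
          Finset.sum_le_sum fun l hl => wt_le' l (hF1 l hl)
      _ = ∑ i, ∑' γ : Γ, ∑ l ∈ hfin.toFinset, ∫⁻ y, ENNReal.ofReal (χ i y) *
          (ENNReal.ofReal (φ (γ • C.ψ i y)) *
          ∏ k : Fin n, s ((l k.succ).1⁻¹ • γ • C.ψ i y)) * D i y := by
          rw [Finset.sum_comm]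
          refine Finset.sum_congr rfl fun i _ => ?_
          exact (Summable.tsum_finsetSum fun _ _ => ENNReal.summable).symm
      _ ≤ ∑ i, ∑' γ : Γ, ∫⁻ y, ENNReal.ofReal (χ i y) *
      (ENNReal.ofReal (φ (γ • C.ψ i y)) * H (γ • C.ψ i y) ^ n) * D i y := by
          refine Finset.sum_le_sum fun i _ => ENNReal.tsum_le_tsum fun γ => ?_
          refine (sum_lintegral_le _ _ _).trans (lintegral_mono fun y => ?_)
          rw [← Finset.sum_mul, ← Finset.mul_sum, ← Finset.mul_sum]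
          gcongr
          refine (Norm.sum_prod_le hfin.toFinset hF1 fun δ =>
            s (δ⁻¹ • γ • C.ψ i y)).trans (le_of_eq ?_)
          rw [hHi]
  · rw [finsum_mem_eq_zero_of_infinite hfin, ENNReal.ofReal_zero]
    exact zero_le

end Vale.Agent.P223.R2.H84.NormG
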